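import Vale.Agent.P154.D6.K0.Data
import Vale.Agent.P154.ApxLemma

set_option maxRecDepth 100000

namespace Vale.Agent.P154.D6.K0

open PolyR Cert InT OutT

/-- The quotient polynomial for `j = 1`. -/
noncomputable def S1 (u : ℝ) : ℝ :=
  (-5 / 524288 : ℝ) * u ^ 0 + (-1817 / 8388608 : ℝ) * u ^ 1 + (17827 / 16777216 : ℝ) * u ^ 2 + (18589 / 2097152 : ℝ) * u ^ 3 + (-412383 / 16777216 : ℝ) * u ^ 4 + (-1403629 / 16777216 : ℝ) * u ^ 5 + (3762137 / 16777216 : ℝ) * u ^ 6 + (338619 / 2097152 : ℝ) * u ^ 7 + (-5826335 / 8388608 : ℝ) * u ^ 8 + (3520783 / 8388608 : ℝ) * u ^ 9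

/-- Certificate polynomial. -/
def lpu1 : List ITm := [⟨(-427780151367187500000000000000000000000000000000000000),0,0⟩,⟨(-3088507522796630859375000000000000000000000000000000000),1,0⟩,⟨11378039790342199218750000000000000000000000000000000000,2,0⟩,⟨76732574253920404522312500000000000000000000000000000000,3,0⟩,⟨(-172020053263833146234158245984375000000000000000000000000),4,0⟩,⟨(-473342201958879696363069805160939156250000000000000000000),5,0⟩,⟨1025656817262854600671021318435631770734562500000000000000,6,0⟩,⟨597053631845223174339078250751506538694435987000000000000,7,0⟩,⟨(-2076261506896553552021405073995346805047052331448367500000),8,0⟩,⟨1014309350921822118914310409647865429603270136875675150551,9,0⟩]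

/-- Certificate tree. -/
def tpu1 : OutT := (A (A (A (O l) (A (O l) (A (O l) (O l)))) (A (A (A (A (O l) (O l)) (A (O l) (A (O l) (O l)))) (A (A (A (O l) (A (O l) (O l))) (A (A (O l) (O l)) (A (O l) (O l)))) (A (A (A (O l) (O l)) (A (O l) (O l))) (A (O l) (O l))))) (A (A (A (A (O l) (O l)) (A (O l) (O l))) (A (O l) (O l))) (A (A (O l) (O l)) (A (O l) (O l)))))) (A (A (A (A (A (O l) (O l)) (A (O l) (O l))) (A (A (O l) (O l)) (A (O l) (O l)))) (A (A (A (O l) (A (O l) (O l))) (A (A (O l) (O l)) (A (O l) (O l)))) (A (A (A (O l) (O l)) (A (O l) (O l))) (A (A (A (O l) (O l)) (A (O l) (O l))) (A (A (O l) (O l)) (A (O l) (O l))))))) (A (A (A (A (A (A (O l) (O l)) (A (O l) (O l))) (A (A (A (O l) (O l)) (A (O l) (O l))) (A (A (O l) (O l)) (A (O l) (O l))))) (A (A (A (A (O l) (O l)) (A (O l) (A (O l) (O l)))) (A (A (A (O l) (O l)) (A (O l) (O l))) (A (A (O l) (O l)) (A (O l) (O l))))) (A (A (A (A (O l) (O l)) (A (O l) (O l))) (A (A (O l) (O l)) (A (O l) (O l)))) (A (A (A (O l) (O l)) (A (A (O l) (O l)) (A (O l) (O l)))) (A (A (A (O l) (O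 l)) (A (O l) (O l))) (A (A (O l) (O l)) (O l))))))) (A (A (A (A (A (A (O l) (O l)) (A (O l) (O l))) (A (A (O l) (O l)) (A (O l) (O l)))) (A (A (A (O l) (O l)) (A (O l) (O l))) (A (A (O l) (O l)) (A (O l) (O l))))) (A (A (A (A (O l) (O l)) (A (O l) (O l))) (A (O l) (O l))) (A (A (O l) (O l)) (A (O l) (O l))))) (A (A (A (A (O l) (O l)) (A (O l) (O l))) (A (A (O l) (O l)) (A (O l) (O l)))) (A (A (A (O l) (O l)) (O l)) (A (O l) (O l)))))) (A (A (A (A (A (O l) (O l)) (A (O l) (O l))) (A (A (O l) (O l)) (A (O l) (O l)))) (A (A (A (O l) (O l)) (A (O l) (O l))) (A (A (O l) (O l)) (A (O l) (O l))))) (A (A (A (A (O l) (O l)) (A (O l) (O l))) (A (A (O l) (O l)) (A (O l) (O l)))) (A (A (A (O l) (O l)) (A (O l) (O l))) (A (A (O l) (A (O l) (O l))) (A (A (O l) (O l)) (A (A (O l) (O l)) (A (O l) (A (O l) (O l))))))))))))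

theorem hpu1 (x : ℝ) (h0 : 0 ≤ x) (h1 : x ≤ 1) : evalIL lpu1 x 0 ≤ 0 :=
  uni_le 9 65536 lpu1 (by norm_num) (by norm_num) (by decide +kernel)
    (chkOut_sound (uniPb 9 65536 lpu1) tpu1 0 32768 0 32768 (by decide +kernel)) x h0 h1

/-- Certificate polynomial. -/
def lpl1 : List ITm := [⟨(-115280151367187500000000000000000000000000000000000000),0,0⟩,⟨2649479110015869140625000000000000000000000000000000000,1,0⟩,⟨(-11378039790342199218750000000000000000000000000000000000),2,0⟩,⟨(-76732574253920404522312500000000000000000000000000000000),3,0⟩,⟨172020053263833146234158245984375000000000000000000000000,4,0⟩,⟨473342201958879696363069805160939156250000000000000000000,5,0⟩,⟨(-1025656817262854600671021318435631770734562500000000000000),6,0⟩,⟨(-597053631845223174339078250751506538694435987000000000000),7,0⟩,⟨2076261506896553552021405073995346805047052331448367500000,8,0⟩,⟨(-1014309350921822118914310409647865429603270136875675150551),9,0⟩]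

/-- Certificate tree. -/
def tpl1 : OutT := (A (A (A (A (A (O l) (A (O l) (O l))) (A (A (O l) (O l)) (A (O l) (O l)))) (A (A (O l) (O l)) (O l))) (A (A (O l) (A (O l) (O l))) (A (A (O l) (O l)) (A (A (O l) (O l)) (A (O l) (O l)))))) (A (A (A (A (A (A (O l) (O l)) (A (O l) (O l))) (A (A (O l) (A (O l) (O l))) (A (A (O l) (O l)) (A (O l) (O l))))) (A (A (A (A (O l) (O l)) (A (A (O l) (O l)) (A (O l) (O l)))) (A (A (A (O l) (O l)) (A (O l) (O l))) (A (A (O l) (O l)) (A (O l) (O l))))) (A (A (A (A (O l) (O l)) (A (O l) (O l))) (A (A (O l) (O l)) (A (O l) (O l)))) (A (A (A (O l) (O l)) (A (O l) (O l))) (A (A (O l) (O l)) (A (O l) (O l))))))) (A (A (A (A (A (O l) (O l)) (A (O l) (O l))) (A (A (O l) (O l)) (A (O l) (O l)))) (A (A (A (O l) (O l)) (A (O l) (O l))) (A (A (O l) (O l)) (O l)))) (A (A (A (O l) (O l)) (A (O l) (O l))) (A (A (O l) (O l)) (A (O l) (O l)))))) (A (A (A (A (A (O l) (O l)) (A (O l) (O l))) (A (A (O l) (O l)) (A (O l) (O l)))) (A (A (A (O l) (O l)) (A (O l) (O l))) (A (A (O l) (A (O l) (O l))) (A (A (O l) (O l))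 (A (O l) (O l)))))) (A (A (A (A (A (O l) (O l)) (A (O l) (O l))) (A (A (O l) (O l)) (A (O l) (O l)))) (A (A (A (A (O l) (O l)) (A (O l) (O l))) (A (A (O l) (O l)) (A (O l) (O l)))) (A (A (A (O l) (O l)) (A (O l) (O l))) (A (A (A (O l) (O l)) (A (O l) (O l))) (A (A (O l) (O l)) (A (O l) (O l))))))) (A (A (A (A (A (A (O l) (O l)) (A (O l) (O l))) (A (A (O l) (O l)) (A (A (O l) (O l)) (A (O l) (O l))))) (A (A (A (A (O l) (O l)) (A (O l) (O l))) (A (A (O l) (O l)) (A (O l) (O l)))) (A (A (A (O l) (O l)) (A (O l) (O l))) (A (A (O l) (O l)) (A (O l) (O l)))))) (A (A (A (A (A (O l) (O l)) (A (O l) (O l))) (A (A (O l) (O l)) (A (O l) (O l)))) (A (A (A (O l) (O l)) (O l)) (A (O l) (O l)))) (A (A (A (O l) (O l)) (A (O l) (O l))) (A (A (O l) (O l)) (A (O l) (O l)))))) (A (A (A (A (O l) (O l)) (A (O l) (O l))) (A (A (O l) (O l)) (A (O l) (O l)))) (A (A (A (O l) (O l)) (O l)) (A (O l) (O l)))))))))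

theorem hpl1 (x : ℝ) (h0 : 0 ≤ x) (h1 : x ≤ 1) : evalIL lpl1 x 0 ≤ 0 :=
  uni_le 9 65536 lpl1 (by norm_num) (by norm_num) (by decide +kernel)
    (chkOut_sound (uniPb 9 65536 lpl1) tpl1 0 32768 0 32768 (by decide +kernel)) x h0 h1

/-- Certificate polynomial. -/
def lnu1 : List ITm := [⟨(-219023437500000000000000000000000000000000000000000000000),0,0⟩,⟨790657925835937500000000000000000000000000000000000000000,1,0⟩,⟨1456389093163801500000000000000000000000000000000000000000,2,0⟩,⟨(-4910884752250905889428000000000000000000000000000000000000),3,0⟩,⟨(-5504641704442660679493063871500000000000000000000000000000),4,0⟩,⟨7573475231342075141809116882575026500000000000000000000000,5,0⟩,⟨8205254538102836805368170547485054165876500000000000000000,6,0⟩,⟨(-2388214527380892697356313003006026154777743948000000000000),7,0⟩,⟨(-4152523013793107104042810147990693610094104662896735000000),8,0⟩,⟨(-1014309350921822118914310409647865429603270136875675150551),9,0⟩]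

/-- Certificate tree. -/
def tnu1 : OutT := (A (A (A (O l) (A (O l) (O l))) (A (A (A (O l) (A (O l) (O l))) (A (A (O l) (O l)) (A (O l) (O l)))) (A (A (O l) (O l)) (O l)))) (A (A (A (O l) (O l)) (A (O l) (O l))) (A (A (A (O l) (O l)) (A (O l) (A (O l) (O l)))) (A (A (A (A (O l) (O l)) (A (O l) (O l))) (A (A (A (O l) (O l)) (A (O l) (O l))) (A (A (O l) (O l)) (A (O l) (O l))))) (A (A (A (O l) (O l)) (A (O l) (O l))) (A (O l) (O l)))))))

theorem hnu1 (x : ℝ) (h0 : 0 ≤ x) (h1 : x ≤ 1) : evalIL lnu1 x 0 ≤ 0 :=
  uni_le 9 65536 lnu1 (by norm_num) (by norm_num) (by decide +kernel)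
    (chkOut_sound (uniPb 9 65536 lnu1) tnu1 0 32768 0 32768 (by decide +kernel)) x h0 h1

/-- Certificate polynomial. -/
def lnl1 : List ITm := [⟨(-59023437500000000000000000000000000000000000000000000000),0,0⟩,⟨(-678266652164062500000000000000000000000000000000000000000),1,0⟩,⟨(-1456389093163801500000000000000000000000000000000000000000),2,0⟩,⟨4910884752250905889428000000000000000000000000000000000000,3,0⟩,⟨5504641704442660679493063871500000000000000000000000000000,4,0⟩,⟨(-7573475231342075141809116882575026500000000000000000000000),5,0⟩,⟨(-8205254538102836805368170547485054165876500000000000000000),6,0⟩,⟨2388214527380892697356313003006026154777743948000000000000,7,0⟩,⟨4152523013793107104042810147990693610094104662896735000000,8,0⟩,⟨1014309350921822118914310409647865429603270136875675150551,9,0⟩]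

/-- Certificate tree. -/
def tnl1 : OutT := (A (A (A (O l) (O l)) (A (O l) (O l))) (A (A (A (O l) (A (O l) (O l))) (A (A (A (O l) (O l)) (A (A (O l) (O l)) (A (O l) (O l)))) (A (A (A (O l) (O l)) (A (O l) (O l))) (A (A (O l) (O l)) (O l))))) (A (A (A (A (O l) (O l)) (O l)) (A (O l) (O l))) (A (A (O l) (O l)) (A (O l) (A (O l) (A (O l) (A (O l) (O l)))))))))

theorem hnl1 (x : ℝ) (h0 : 0 ≤ x) (h1 : x ≤ 1) : evalIL lnl1 x 0 ≤ 0 :=
  uni_le 9 65536 lnl1 (by norm_num) (by norm_num) (by decide +kernel)
    (chkOut_sound (uniPb 9 65536 lnl1) tnl1 0 32768 0 32768 (by decide +kernel)) x h0 h1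

theorem apx1 (u : ℝ) (h0 : -(404217 / 1000000 : ℝ) ≤ u) (h1 : u ≤ 2 * (404217 / 1000000 : ℝ)) :
    |((1 + u)⁻¹) ^ 1 - evalZ Ax.p1 (3 * u) / Ax.D1| ≤ Ax.e1 * |u| ^ Ax.m1 := by
  have hu : 0 < 1 + u := by norm_num at h0 ⊢; linarith
  refine apx_of_S 1 2 _ (S1 u) _ u hu ?_ ?_ ?_
  · simp only [Ax, evalZ_cons, evalZ_nil, S1]
    push_cast
    ring
  · rcases le_total 0 u with hs | hs
    · have hx := hpu1 (u / (2 * (404217 / 1000000 : ℝ))) (by positivity) (by rw [div_le_one (by norm_num)]; exact h1)
      have e : evalIL lpu1 (u / (2 * (404217 / 1000000 : ℝ))) 0 = 16384000000000000000000000000000000000000000000000000000000 * (S1 u - Ax.e1 * (1 + u) ^ 1) := by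
        simp only [lpu1, evalIL, List.map_cons, List.map_nil, List.sum_cons, List.sum_nil, S1, Ax]
        push_cast
        ring
      rw [e] at hx
      have := cmul_nonpos (by norm_num) hx
      simp only [Ax] at this ⊢
      linarith
    · have hx := hnu1 (-u / (404217 / 1000000 : ℝ)) (by apply div_nonneg <;> [linarith; norm_num]) (by rw [div_le_one (by norm_num)]; linarith)
      have e : evalIL lnu1 (-u / (404217 / 1000000 : ℝ)) 0 = 8388608000000000000000000000000000000000000000000000000000000 * (S1 u - Ax.e1 * (1 + u) ^ 1) := by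
        simp only [lnu1, evalIL, List.map_cons, List.map_nil, List.sum_cons, List.sum_nil, S1, Ax]
        push_cast
        ring
      rw [e] at hx
      have := cmul_nonpos (by norm_num) hx
      simp only [Ax] at this ⊢
      linarith
  · rcases le_total 0 u with hs | hs
    · have hx := hpl1 (u / (2 * (404217 / 1000000 : ℝ))) (by positivity) (by rw [div_le_one (by norm_num)]; exact h1)
      have e : evalIL lpl1 (u / (2 * (404217 / 1000000 : ℝ))) 0 = 16384000000000000000000000000000000000000000000000000000000 * (-S1 u - Ax.e1 * (1 + u) ^ 1) := by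
        simp only [lpl1, evalIL, List.map_cons, List.map_nil, List.sum_cons, List.sum_nil, S1, Ax]
        push_cast
        ring
      rw [e] at hx
      have := cmul_nonpos (by norm_num) hx
      simp only [Ax] at this ⊢
      linarith
    · have hx := hnl1 (-u / (404217 / 1000000 : ℝ)) (by apply div_nonneg <;> [linarith; norm_num]) (by rw [div_le_one (by norm_num)]; linarith)
      have e : evalIL lnl1 (-u / (404217 / 1000000 : ℝ)) 0 = 8388608000000000000000000000000000000000000000000000000000000 * (-S1 u - Ax.e1 * (1 + u) ^ 1) := by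
        simp only [lnl1, evalIL, List.map_cons, List.map_nil, List.sum_cons, List.sum_nil, S1, Ax]
        push_cast
        ring
      rw [e] at hx
      have := cmul_nonpos (by norm_num) hx
      simp only [Ax] at this ⊢
      linarith

/-- The quotient polynomial for `j = 2`. -/
noncomputable def S2 (u : ℝ) : ℝ :=
  (-1017 / 8388608 : ℝ) * u ^ 0 + (-22045 / 8388608 : ℝ) * u ^ 1 + (186443 / 16777216 : ℝ) * u ^ 2 + (1941965 / 16777216 : ℝ) * u ^ 3 + (-1751287 / 8388608 : ℝ) * u ^ 4 + (-10492883 / 8388608 : ℝ) * u ^ 5 + (30471055 / 16777216 : ℝ) * u ^ 6 + (9042937 / 2097152 : ℝ) * u ^ 7 + (-110409219 / 16777216 : ℝ) * u ^ 8 + (-42450469 / 16777216 : ℝ) * u ^ 9 + (77284249 / 16777216 : ℝ) * u ^ 10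

/-- Certificate polynomial. -/
def lpu2 : List ITm := [⟨(-5224090576171875000000000000000000000000000000000000000000000),0,0⟩,⟨(-40043486705932617187500000000000000000000000000000000000000000),1,0⟩,⟨116880705518013941528320312500000000000000000000000000000000000,2,0⟩,⟨1002017144285696772070664062500000000000000000000000000000000000,3,0⟩,⟨(-1461051900879806195546277572718750000000000000000000000000000000),4,0⟩,⟨(-7076975958913495610326114644805045687500000000000000000000000000),5,0⟩,⟨8307205529713934392620398326861740985455937500000000000000000000,6,0⟩,⟨15944522836573101085551316552278744797255460801000000000000000000,7,0⟩,⟨(-19672608201915234145509930814350998559076186502092944750000000000),8,0⟩,⟨(-6114819865029587350666918083439679800707016201235152071646500000),9,0⟩,⟨8999880362190536163017514303355472500099351189697946601319553801,10,0⟩]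

/-- Certificate tree. -/
def tpu2 : OutT := (A (A (A (O l) (A (O l) (A (O l) (O l)))) (A (A (A (A (O l) (O l)) (A (O l) (A (O l) (O l)))) (A (A (A (O l) (A (O l) (O l))) (A (A (O l) (O l)) (A (O l) (O l)))) (A (A (A (O l) (O l)) (O l)) (A (O l) (O l))))) (A (A (A (A (O l) (O l)) (O l)) (A (O l) (O l))) (A (A (O l) (O l)) (A (O l) (O l)))))) (A (A (A (A (A (O l) (O l)) (A (O l) (O l))) (A (A (O l) (O l)) (A (O l) (O l)))) (A (A (A (O l) (O l)) (A (O l) (A (O l) (O l)))) (A (A (A (O l) (O l)) (A (O l) (O l))) (A (A (O l) (O l)) (A (A (O l) (O l)) (A (O l) (O l))))))) (A (A (A (A (A (A (O l) (O l)) (A (O l) (O l))) (A (A (O l) (A (O l) (O l))) (A (A (O l) (O l)) (A (O l) (O l))))) (A (A (A (A (O l) (O l)) (A (O l) (O l))) (A (A (O l) (A (O l) (O l))) (A (A (O l) (O l)) (A (O l) (O l))))) (A (A (A (A (O l) (O l)) (A (O l) (O l))) (A (A (O l) (O l)) (A (O l) (O l)))) (A (A (A (O l) (O l)) (A (O l) (O l))) (A (A (O l) (O l)) (A (O l) (O l))))))) (A (A (A (A (A (A (O l) (O l)) (A (O l) (O l))) (A (A (O l) (O l)) (A (O l) (O l)))) (A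 (A (A (O l) (O l)) (A (O l) (O l))) (A (O l) (O l)))) (A (A (A (O l) (O l)) (A (O l) (O l))) (A (A (O l) (O l)) (A (O l) (O l))))) (A (A (A (A (O l) (O l)) (A (O l) (O l))) (A (O l) (O l))) (A (A (O l) (O l)) (A (O l) (O l)))))) (A (A (A (A (A (O l) (O l)) (A (O l) (O l))) (A (A (O l) (O l)) (A (O l) (O l)))) (A (A (A (O l) (O l)) (A (O l) (O l))) (A (O l) (O l)))) (A (A (A (O l) (O l)) (A (A (O l) (O l)) (A (O l) (O l)))) (A (A (A (O l) (O l)) (A (O l) (O l))) (A (A (O l) (O l)) (A (A (O l) (O l)) (A (O l) (A (O l) (A (O l) (O l))))))))))))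

theorem hpu2 (x : ℝ) (h0 : 0 ≤ x) (h1 : x ≤ 1) : evalIL lpu2 x 0 ≤ 0 :=
  uni_le 10 65536 lpu2 (by norm_num) (by norm_num) (by decide +kernel)
    (chkOut_sound (uniPb 10 65536 lpu2) tpu2 0 32768 0 32768 (by decide +kernel)) x h0 h1

/-- Certificate polynomial. -/
def lpl2 : List ITm := [⟨(-1251434326171875000000000000000000000000000000000000000000000),0,0⟩,⟨29573417708129882812500000000000000000000000000000000000000000,1,0⟩,⟨(-121112885398098769409179687500000000000000000000000000000000000),2,0⟩,⟨(-1002017144285696772070664062500000000000000000000000000000000000),3,0⟩,⟨1461051900879806195546277572718750000000000000000000000000000000,4,0⟩,⟨7076975958913495610326114644805045687500000000000000000000000000,5,0⟩,⟨(-8307205529713934392620398326861740985455937500000000000000000000),6,0⟩,⟨(-15944522836573101085551316552278744797255460801000000000000000000),7,0⟩,⟨19672608201915234145509930814350998559076186502092944750000000000,8,0⟩,⟨6114819865029587350666918083439679800707016201235152071646500000,9,0⟩,⟨(-8999880362190536163017514303355472500099351189697946601319553801),10,0⟩]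

/-- Certificate tree. -/
def tpl2 : OutT := (A (A (A (A (A (O l) (A (O l) (O l))) (A (A (O l) (O l)) (A (O l) (O l)))) (A (A (O l) (O l)) (O l))) (A (A (O l) (A (O l) (O l))) (A (A (O l) (O l)) (A (A (O l) (O l)) (A (O l) (O l)))))) (A (A (A (A (A (O l) (A (O l) (O l))) (A (A (O l) (O l)) (A (A (O l) (O l)) (A (O l) (O l))))) (A (A (A (A (O l) (O l)) (A (O l) (A (O l) (O l)))) (A (A (A (O l) (O l)) (A (O l) (O l))) (A (A (O l) (O l)) (A (O l) (O l))))) (A (A (A (A (O l) (O l)) (A (O l) (O l))) (A (A (O l) (O l)) (A (O l) (O l)))) (A (A (A (O l) (O l)) (A (O l) (O l))) (A (O l) (O l)))))) (A (A (A (A (A (O l) (O l)) (A (O l) (O l))) (A (A (O l) (O l)) (A (O l) (O l)))) (A (A (O l) (O l)) (A (O l) (O l)))) (A (A (A (O l) (O l)) (A (O l) (O l))) (A (A (O l) (O l)) (A (O l) (O l)))))) (A (A (A (A (A (O l) (O l)) (A (O l) (O l))) (A (A (O l) (O l)) (A (O l) (O l)))) (A (A (A (O l) (O l)) (A (O l) (O l))) (A (A (O l) (O l)) (A (O l) (O l))))) (A (A (A (A (A (O l) (O l)) (A (O l) (O l))) (A (A (O l) (O l)) (A (O l) (O l)))) (A (A (A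 (O l) (O l)) (A (A (O l) (O l)) (A (O l) (O l)))) (A (A (A (O l) (O l)) (A (O l) (O l))) (A (A (O l) (O l)) (A (A (O l) (O l)) (A (O l) (O l))))))) (A (A (A (A (A (A (O l) (O l)) (A (O l) (O l))) (A (A (O l) (O l)) (A (O l) (O l)))) (A (A (A (A (O l) (O l)) (A (O l) (O l))) (A (A (O l) (O l)) (A (O l) (O l)))) (A (A (A (O l) (O l)) (A (O l) (O l))) (A (A (O l) (O l)) (A (O l) (O l)))))) (A (A (A (A (A (O l) (O l)) (A (O l) (O l))) (A (O l) (O l))) (A (A (O l) (O l)) (A (O l) (O l)))) (A (A (A (O l) (O l)) (A (O l) (O l))) (A (O l) (O l))))) (A (A (A (A (O l) (O l)) (A (O l) (O l))) (A (A (O l) (O l)) (O l))) (A (A (O l) (O l)) (A (O l) (O l)))))))))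

theorem hpl2 (x : ℝ) (h0 : 0 ≤ x) (h1 : x ≤ 1) : evalIL lpl2 x 0 ≤ 0 :=
  uni_le 10 65536 lpl2 (by norm_num) (by norm_num) (by decide +kernel)
    (chkOut_sound (uniPb 10 65536 lpl2) tpl2 0 32768 0 32768 (by decide +kernel)) x h0 h1

/-- Certificate polynomial. -/
def lnu2 : List ITm := [⟨(-5349468750000000000000000000000000000000000000000000000000000000),0,0⟩,⟨20502265193437500000000000000000000000000000000000000000000000000,1,0⟩,⟨29921460612611569031250000000000000000000000000000000000000000000,2,0⟩,⟨(-128258194468569186825045000000000000000000000000000000000000000000),3,0⟩,⟨(-93507321656307596514961764654000000000000000000000000000000000000),4,0⟩,⟨226463230685231859530435668633761462000000000000000000000000000000,5,0⟩,⟨132915288475422950281926373229787855767295000000000000000000000000,6,0⟩,⟨(-127556182692584808684410532418229958378043686408000000000000000000),7,0⟩,⟨(-78690432807660936582039723257403994236304746008371779000000000000),8,0⟩,⟨12229639730059174701333836166879359601414032402470304143293000000,9,0⟩,⟨8999880362190536163017514303355472500099351189697946601319553801,10,0⟩]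

/-- Certificate tree. -/
def tnu2 : OutT := (A (A (A (O l) (A (O l) (O l))) (A (A (A (O l) (A (O l) (O l))) (A (A (O l) (O l)) (A (O l) (O l)))) (A (A (O l) (O l)) (A (O l) (O l))))) (A (A (A (O l) (O l)) (A (O l) (O l))) (A (A (A (O l) (O l)) (A (A (O l) (O l)) (A (O l) (O l)))) (A (A (A (A (O l) (O l)) (A (O l) (A (O l) (O l)))) (A (A (A (O l) (O l)) (A (O l) (A (O l) (O l)))) (A (A (A (O l) (O l)) (A (O l) (O l))) (A (O l) (O l))))) (A (A (A (A (O l) (O l)) (O l)) (A (O l) (O l))) (A (O l) (O l)))))))

theorem hnu2 (x : ℝ) (h0 : 0 ≤ x) (h1 : x ≤ 1) : evalIL lnu2 x 0 ≤ 0 :=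
  uni_le 10 65536 lnu2 (by norm_num) (by norm_num) (by decide +kernel)
    (chkOut_sound (uniPb 10 65536 lnu2) tnu2 0 32768 0 32768 (by decide +kernel)) x h0 h1

/-- Certificate polynomial. -/
def lnl2 : List ITm := [⟨(-1281468750000000000000000000000000000000000000000000000000000000),0,0⟩,⟨(-15141589866562500000000000000000000000000000000000000000000000000),1,0⟩,⟨(-31004898661913284968750000000000000000000000000000000000000000000),2,0⟩,⟨128258194468569186825045000000000000000000000000000000000000000000,3,0⟩,⟨93507321656307596514961764654000000000000000000000000000000000000,4,0⟩,⟨(-226463230685231859530435668633761462000000000000000000000000000000),5,0⟩,⟨(-132915288475422950281926373229787855767295000000000000000000000000),6,0⟩,⟨127556182692584808684410532418229958378043686408000000000000000000,7,0⟩,⟨78690432807660936582039723257403994236304746008371779000000000000,8,0⟩,⟨(-12229639730059174701333836166879359601414032402470304143293000000),9,0⟩,⟨(-8999880362190536163017514303355472500099351189697946601319553801),10,0⟩]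

/-- Certificate tree. -/
def tnl2 : OutT := (A (A (A (O l) (O l)) (A (O l) (A (O l) (O l)))) (A (A (A (O l) (A (O l) (O l))) (A (A (A (O l) (O l)) (A (A (O l) (O l)) (A (O l) (O l)))) (A (A (A (A (O l) (O l)) (A (O l) (O l))) (A (A (O l) (O l)) (O l))) (A (A (O l) (O l)) (A (O l) (O l)))))) (A (A (A (A (O l) (O l)) (A (O l) (O l))) (A (A (O l) (O l)) (O l))) (A (A (O l) (O l)) (A (A (O l) (O l)) (A (O l) (A (O l) (A (O l) (A (O l) (O l))))))))))

theorem hnl2 (x : ℝ) (h0 : 0 ≤ x) (h1 : x ≤ 1) : evalIL lnl2 x 0 ≤ 0 :=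
  uni_le 10 65536 lnl2 (by norm_num) (by norm_num) (by decide +kernel)
    (chkOut_sound (uniPb 10 65536 lnl2) tnl2 0 32768 0 32768 (by decide +kernel)) x h0 h1

theorem apx2 (u : ℝ) (h0 : -(404217 / 1000000 : ℝ) ≤ u) (h1 : u ≤ 2 * (404217 / 1000000 : ℝ)) :
    |((1 + u)⁻¹) ^ 2 - evalZ Ax.p2 (3 * u) / Ax.D2| ≤ Ax.e2 * |u| ^ Ax.m2 := by
  have hu : 0 < 1 + u := by norm_num at h0 ⊢; linarith
  refine apx_of_S 2 2 _ (S2 u) _ u hu ?_ ?_ ?_
  · simp only [Ax, evalZ_cons, evalZ_nil, S2]
    push_cast
    ring
  · rcases le_total 0 u with hs | hs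
    · have hx := hpu2 (u / (2 * (404217 / 1000000 : ℝ))) (by positivity) (by rw [div_le_one (by norm_num)]; exact h1)
      have e : evalIL lpu2 (u / (2 * (404217 / 1000000 : ℝ))) 0 = 16384000000000000000000000000000000000000000000000000000000000000 * (S2 u - Ax.e2 * (1 + u) ^ 2) := by
        simp only [lpu2, evalIL, List.map_cons, List.map_nil, List.sum_cons, List.sum_nil, S2, Ax]
        push_cast
        ring
      rw [e] at hx
      have := cmul_nonpos (by norm_num) hx
      simp only [Ax] at this ⊢
      linarith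
    · have hx := hnu2 (-u / (404217 / 1000000 : ℝ)) (by apply div_nonneg <;> [linarith; norm_num]) (by rw [div_le_one (by norm_num)]; linarith)
      have e : evalIL lnu2 (-u / (404217 / 1000000 : ℝ)) 0 = 16777216000000000000000000000000000000000000000000000000000000000000 * (S2 u - Ax.e2 * (1 + u) ^ 2) := by
        simp only [lnu2, evalIL, List.map_cons, List.map_nil, List.sum_cons, List.sum_nil, S2, Ax]
        push_cast
        ring
      rw [e] at hx
      have := cmul_nonpos (by norm_num) hx
      simp only [Ax] at this ⊢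
      linarith
  · rcases le_total 0 u with hs | hs
    · have hx := hpl2 (u / (2 * (404217 / 1000000 : ℝ))) (by positivity) (by rw [div_le_one (by norm_num)]; exact h1)
      have e : evalIL lpl2 (u / (2 * (404217 / 1000000 : ℝ))) 0 = 16384000000000000000000000000000000000000000000000000000000000000 * (-S2 u - Ax.e2 * (1 + u) ^ 2) := by
        simp only [lpl2, evalIL, List.map_cons, List.map_nil, List.sum_cons, List.sum_nil, S2, Ax]
        push_cast
        ring
      rw [e] at hx
      have := cmul_nonpos (by norm_num) hx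
      simp only [Ax] at this ⊢
      linarith
    · have hx := hnl2 (-u / (404217 / 1000000 : ℝ)) (by apply div_nonneg <;> [linarith; norm_num]) (by rw [div_le_one (by norm_num)]; linarith)
      have e : evalIL lnl2 (-u / (404217 / 1000000 : ℝ)) 0 = 16777216000000000000000000000000000000000000000000000000000000000000 * (-S2 u - Ax.e2 * (1 + u) ^ 2) := by
        simp only [lnl2, evalIL, List.map_cons, List.map_nil, List.sum_cons, List.sum_nil, S2, Ax]
        push_cast
        ring
      rw [e] at hx
      have := cmul_nonpos (by norm_num) hx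
      simp only [Ax] at this ⊢
      linarith

/-- The quotient polynomial for `j = 3`. -/
noncomputable def S3 (u : ℝ) : ℝ :=
  (8039 / 4194304 : ℝ) * u ^ 0 + (-181813 / 4194304 : ℝ) * u ^ 1 + (-5219971 / 16777216 : ℝ) * u ^ 2 + (17807281 / 16777216 : ℝ) * u ^ 3 + (93029985 / 16777216 : ℝ) * u ^ 4 + (-65432919 / 8388608 : ℝ) * u ^ 5 + (-476846803 / 16777216 : ℝ) * u ^ 6 + (411539671 / 16777216 : ℝ) * u ^ 7 + (776779417 / 16777216 : ℝ) * u ^ 8 + (-167077803 / 8388608 : ℝ) * u ^ 9 + (-27559609 / 1048576 : ℝ) * u ^ 10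

/-- Certificate polynomial. -/
def lpu3 : List ITm := [⟨(-2208187103271484375000000000000000000000000000000000000000000),0,0⟩,⟨(-46000250485633850097656250000000000000000000000000000000000000),1,0⟩,⟨(-216404858698424446975708007812500000000000000000000000000000000),2,0⟩,⟨572060003533285072400631134033203125000000000000000000000000000,3,0⟩,⟨2425388379072609479032014551938476562500000000000000000000000000,4,0⟩,⟨(-2758221898384207695095119610705670246093750000000000000000000000),5,0⟩,⟨(-8125055890557471507945786039305519229496511718750000000000000000),6,0⟩,⟨5668964769838535993095298148452115977153179431117187500000000000,7,0⟩,⟨8650362979400034216667007458907204056759427064735773390625000000,8,0⟩,⟨(-3008360958243771065715490852886903275808348882988121681593187500),9,0⟩,⟨(-3209362671412509425473267578137224444181253284116925771449830441),10,0⟩]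

/-- Certificate tree. -/
def tpu3 : OutT := (A (A (A (A (O l) (O l)) (O l)) (A (A (O l) (A (O l) (O l))) (A (A (O l) (A (O l) (O l))) (A (A (O l) (A (O l) (O l))) (A (A (O l) (A (O l) (O l))) (A (A (O l) (O l)) (A (O l) (O l)))))))) (A (A (A (A (A (A (A (O l) (O l)) (O l)) (A (O l) (O l))) (A (A (O l) (O l)) (O l))) (A (A (O l) (O l)) (A (O l) (O l)))) (A (A (A (O l) (O l)) (A (O l) (O l))) (A (A (O l) (O l)) (A (O l) (O l))))) (A (A (A (A (O l) (O l)) (A (O l) (O l))) (A (A (O l) (O l)) (A (O l) (A (O l) (O l))))) (A (A (A (A (O l) (O l)) (A (O l) (A (O l) (O l)))) (A (A (A (O l) (O l)) (A (O l) (A (O l) (O l)))) (A (A (A (O l) (O l)) (A (O l) (O l))) (A (A (O l) (A (O l) (O l))) (A (A (O l) (O l)) (A (O l) (O l))))))) (A (A (A (A (A (A (O l) (O l)) (O l)) (A (O l) (O l))) (A (A (O l) (O l)) (A (O l) (O l)))) (A (A (O l) (O l)) (A (O l) (O l)))) (A (A (A (O l) (O l)) (O l)) (A (O l) (O l))))))))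

theorem hpu3 (x : ℝ) (h0 : 0 ≤ x) (h1 : x ≤ 1) : evalIL lpu3 x 0 ≤ 0 :=
  uni_le 10 65536 lpu3 (by norm_num) (by norm_num) (by decide +kernel)
    (chkOut_sound (uniPb 10 65536 lpu3) tpu3 0 32768 0 32768 (by decide +kernel)) x h0 h1

/-- Certificate polynomial. -/
def lpl3 : List ITm := [⟨(-6133480072021484375000000000000000000000000000000000000000000),0,0⟩,⟨25769188402061462402343750000000000000000000000000000000000000,1,0⟩,⟨200049380253953687301635742187500000000000000000000000000000000,2,0⟩,⟨(-576467445153544163776080780029296875000000000000000000000000000),3,0⟩,⟨(-2425388379072609479032014551938476562500000000000000000000000000),4,0⟩,⟨2758221898384207695095119610705670246093750000000000000000000000,5,0⟩,⟨8125055890557471507945786039305519229496511718750000000000000000,6,0⟩,⟨(-5668964769838535993095298148452115977153179431117187500000000000),7,0⟩,⟨(-8650362979400034216667007458907204056759427064735773390625000000),8,0⟩,⟨3008360958243771065715490852886903275808348882988121681593187500,9,0⟩,⟨3209362671412509425473267578137224444181253284116925771449830441,10,0⟩]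

/-- Certificate tree. -/
def tpl3 : OutT := (A (A (A (A (O l) (O l)) (A (A (O l) (A (O l) (O l))) (A (A (O l) (O l)) (A (O l) (O l))))) (A (A (A (O l) (O l)) (A (O l) (O l))) (A (O l) (A (O l) (O l))))) (A (A (A (A (O l) (O l)) (A (O l) (O l))) (A (A (A (O l) (O l)) (A (O l) (A (O l) (O l)))) (A (A (A (O l) (O l)) (A (O l) (O l))) (A (A (A (O l) (O l)) (A (O l) (O l))) (A (A (O l) (A (O l) (O l))) (A (A (O l) (O l)) (A (O l) (O l)))))))) (A (A (A (A (A (A (A (O l) (O l)) (A (O l) (O l))) (A (A (O l) (O l)) (A (O l) (O l)))) (A (A (A (O l) (O l)) (O l)) (A (O l) (O l)))) (A (A (A (O l) (O l)) (A (O l) (O l))) (A (O l) (O l)))) (A (A (A (O l) (O l)) (A (O l) (O l))) (A (A (O l) (O l)) (A (O l) (O l))))) (A (A (A (O l) (O l)) (A (O l) (O l))) (A (A (O l) (A (O l) (O l))) (A (A (O l) (O l)) (A (O l) (A (O l) (A (O l) (A (O l) (O l)))))))))))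

theorem hpl3 (x : ℝ) (h0 : 0 ≤ x) (h1 : x ≤ 1) : evalIL lpl3 x 0 ≤ 0 :=
  uni_le 10 65536 lpl3 (by norm_num) (by norm_num) (by decide +kernel)
    (chkOut_sound (uniPb 10 65536 lpl3) tpl3 0 32768 0 32768 (by decide +kernel)) x h0 h1

/-- Certificate polynomial. -/
def lnu3 : List ITm := [⟨(-2261183593750000000000000000000000000000000000000000000000000000),0,0⟩,⟨23552128248644531250000000000000000000000000000000000000000000000,1,0⟩,⟨(-55399643826796658425781250000000000000000000000000000000000000000),2,0⟩,⟨(-73223680452260489267280785156250000000000000000000000000000000000),3,0⟩,⟨155224856260647006658048931324062500000000000000000000000000000000,4,0⟩,⟨88263100748294646243043827542581447875000000000000000000000000000,5,0⟩,⟨(-130000894248919544127132576628888307671944187500000000000000000000),6,0⟩,⟨(-45351718158708287944762385187616927817225435448937500000000000000),7,0⟩,⟨34601451917600136866668029835628816227037708258943093562500000000,8,0⟩,⟨6016721916487542131430981705773806551616697765976243363186375000,9,0⟩,⟨(-3209362671412509425473267578137224444181253284116925771449830441),10,0⟩]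

/-- Certificate tree. -/
def tnu3 : OutT := (A (A (A (A (O l) (O l)) (A (A (O l) (O l)) (A (O l) (O l)))) (A (A (O l) (O l)) (A (O l) (O l)))) (A (A (A (O l) (O l)) (A (O l) (O l))) (A (A (A (O l) (O l)) (A (A (O l) (O l)) (A (O l) (A (O l) (O l))))) (A (A (A (A (O l) (A (O l) (O l))) (A (A (O l) (O l)) (A (O l) (O l)))) (A (A (A (O l) (O l)) (A (O l) (O l))) (A (A (O l) (O l)) (O l)))) (A (A (A (O l) (O l)) (O l)) (A (O l) (O l)))))))

theorem hnu3 (x : ℝ) (h0 : 0 ≤ x) (h1 : x ≤ 1) : evalIL lnu3 x 0 ≤ 0 :=
  uni_le 10 65536 lnu3 (by norm_num) (by norm_num) (by decide +kernel)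
    (chkOut_sound (uniPb 10 65536 lnu3) tnu3 0 32768 0 32768 (by decide +kernel)) x h0 h1

/-- Certificate polynomial. -/
def lnl3 : List ITm := [⟨(-6280683593750000000000000000000000000000000000000000000000000000),0,0⟩,⟨(-13193824461855468750000000000000000000000000000000000000000000000),1,0⟩,⟨51212641345012143949218750000000000000000000000000000000000000000,2,0⟩,⟨73787832979653652963338339843750000000000000000000000000000000000,3,0⟩,⟨(-155224856260647006658048931324062500000000000000000000000000000000),4,0⟩,⟨(-88263100748294646243043827542581447875000000000000000000000000000),5,0⟩,⟨130000894248919544127132576628888307671944187500000000000000000000,6,0⟩,⟨45351718158708287944762385187616927817225435448937500000000000000,7,0⟩,⟨(-34601451917600136866668029835628816227037708258943093562500000000),8,0⟩,⟨(-6016721916487542131430981705773806551616697765976243363186375000),9,0⟩,⟨3209362671412509425473267578137224444181253284116925771449830441,10,0⟩]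

/-- Certificate tree. -/
def tnl3 : OutT := (A (A (O l) (A (O l) (A (O l) (O l)))) (A (A (A (A (O l) (O l)) (A (A (O l) (O l)) (A (A (O l) (O l)) (A (O l) (O l))))) (A (A (A (A (O l) (O l)) (A (O l) (O l))) (A (A (O l) (O l)) (O l))) (A (A (O l) (O l)) (A (O l) (O l))))) (A (A (A (O l) (O l)) (A (O l) (O l))) (A (A (O l) (O l)) (A (A (O l) (O l)) (A (O l) (A (O l) (A (O l) (A (O l) (O l))))))))))

theorem hnl3 (x : ℝ) (h0 : 0 ≤ x) (h1 : x ≤ 1) : evalIL lnl3 x 0 ≤ 0 :=
  uni_le 10 65536 lnl3 (by norm_num) (by norm_num) (by decide +kernel)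
    (chkOut_sound (uniPb 10 65536 lnl3) tnl3 0 32768 0 32768 (by decide +kernel)) x h0 h1

theorem apx3 (u : ℝ) (h0 : -(404217 / 1000000 : ℝ) ≤ u) (h1 : u ≤ 2 * (404217 / 1000000 : ℝ)) :
    |((1 + u)⁻¹) ^ 3 - evalZ Ax.p3 (3 * u) / Ax.D3| ≤ Ax.e3 * |u| ^ Ax.m3 := by
  have hu : 0 < 1 + u := by norm_num at h0 ⊢; linarith
  refine apx_of_S 3 2 _ (S3 u) _ u hu ?_ ?_ ?_
  · simp only [Ax, evalZ_cons, evalZ_nil, S3]
    push_cast
    ring
  · rcases le_total 0 u with hs | hs
    · have hx := hpu3 (u / (2 * (404217 / 1000000 : ℝ))) (by positivity) (by rw [div_le_one (by norm_num)]; exact h1)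
      have e : evalIL lpu3 (u / (2 * (404217 / 1000000 : ℝ))) 0 = 1024000000000000000000000000000000000000000000000000000000000000 * (S3 u - Ax.e3 * (1 + u) ^ 3) := by
        simp only [lpu3, evalIL, List.map_cons, List.map_nil, List.sum_cons, List.sum_nil, S3, Ax]
        push_cast
        ring
      rw [e] at hx
      have := cmul_nonpos (by norm_num) hx
      simp only [Ax] at this ⊢
      linarith
    · have hx := hnu3 (-u / (404217 / 1000000 : ℝ)) (by apply div_nonneg <;> [linarith; norm_num]) (by rw [div_le_one (by norm_num)]; linarith)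
      have e : evalIL lnu3 (-u / (404217 / 1000000 : ℝ)) 0 = 1048576000000000000000000000000000000000000000000000000000000000000 * (S3 u - Ax.e3 * (1 + u) ^ 3) := by
        simp only [lnu3, evalIL, List.map_cons, List.map_nil, List.sum_cons, List.sum_nil, S3, Ax]
        push_cast
        ring
      rw [e] at hx
      have := cmul_nonpos (by norm_num) hx
      simp only [Ax] at this ⊢
      linarith
  · rcases le_total 0 u with hs | hs
    · have hx := hpl3 (u / (2 * (404217 / 1000000 : ℝ))) (by positivity) (by rw [div_le_one (by norm_num)]; exact h1)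
      have e : evalIL lpl3 (u / (2 * (404217 / 1000000 : ℝ))) 0 = 1024000000000000000000000000000000000000000000000000000000000000 * (-S3 u - Ax.e3 * (1 + u) ^ 3) := by
        simp only [lpl3, evalIL, List.map_cons, List.map_nil, List.sum_cons, List.sum_nil, S3, Ax]
        push_cast
        ring
      rw [e] at hx
      have := cmul_nonpos (by norm_num) hx
      simp only [Ax] at this ⊢
      linarith
    · have hx := hnl3 (-u / (404217 / 1000000 : ℝ)) (by apply div_nonneg <;> [linarith; norm_num]) (by rw [div_le_one (by norm_num)]; linarith)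
      have e : evalIL lnl3 (-u / (404217 / 1000000 : ℝ)) 0 = 1048576000000000000000000000000000000000000000000000000000000000000 * (-S3 u - Ax.e3 * (1 + u) ^ 3) := by
        simp only [lnl3, evalIL, List.map_cons, List.map_nil, List.sum_cons, List.sum_nil, S3, Ax]
        push_cast
        ring
      rw [e] at hx
      have := cmul_nonpos (by norm_num) hx
      simp only [Ax] at this ⊢
      linarith

/-- The quotient polynomial for `j = 4`. -/
noncomputable def S4 (u : ℝ) : ℝ :=
  (106633 / 2097152 : ℝ) * u ^ 0 + (138699 / 524288 : ℝ) * u ^ 1 + (-27561645 / 8388608 : ℝ) * u ^ 2 + (-110573333 / 8388608 : ℝ) * u ^ 3 + (439244463 / 16777216 : ℝ) * u ^ 4 + (1769336133 / 16777216 : ℝ) * u ^ 5 + (-6634403 / 131072 : ℝ) * u ^ 6 + (-528940631 / 2097152 : ℝ) * u ^ 7 + (-581190009 / 16777216 : ℝ) * u ^ 8 + (3201119165 / 16777216 : ℝ) * u ^ 9 + (387716023 / 4194304 : ℝ) * u ^ 10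

/-- Certificate polynomial. -/
def lpu4 : List ITm := [⟨(-5188175201416015625000000000000000000000000000000000000000000),0,0⟩,⟨185748159858123779296875000000000000000000000000000000000000000,1,0⟩,⟨(-9632620689823891163177490234375000000000000000000000000000000000),2,0⟩,⟨(-28978002213255171405720546020507812500000000000000000000000000000),3,0⟩,⟨45715061149799833738105406015901306152343750000000000000000000000,4,0⟩,⟨149167169743505802989117511299730827976562500000000000000000000000,5,0⟩,⟨(-57878769777233603996925159062252635471014000000000000000000000000),6,0⟩,⟨(-233157268765968566567982790326944215163399637315750000000000000000),7,0⟩,⟨(-25888968877509650598710475434986172173060285538377635562500000000),8,0⟩,⟨115277095410117408598368177088831622399193104979236754535250625000,9,0⟩,⟨45150180879732870916075413051404554025289002266813855272501696327,10,0⟩]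

/-- Certificate tree. -/
def tpu4 : OutT := (A (A (A (A (A (A (O l) (O l)) (O l)) (O l)) (A (O l) (O l))) (A (O l) (A (O l) (O l)))) (A (A (A (A (O l) (O l)) (A (O l) (A (O l) (O l)))) (A (A (A (O l) (A (O l) (O l))) (A (A (O l) (A (O l) (O l))) (A (A (O l) (O l)) (A (O l) (O l))))) (A (A (A (A (O l) (O l)) (O l)) (A (O l) (O l))) (A (A (O l) (O l)) (O l))))) (A (A (A (A (O l) (O l)) (A (O l) (O l))) (A (O l) (O l))) (A (A (O l) (O l)) (A (O l) (A (O l) (A (O l) (A (O l) (A (O l) (O l))))))))))

theorem hpu4 (x : ℝ) (h0 : 0 ≤ x) (h1 : x ≤ 1) : evalIL lpu4 x 0 ≤ 0 :=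
  uni_le 10 65536 lpu4 (by norm_num) (by norm_num) (by decide +kernel)
    (chkOut_sound (uniPb 10 65536 lpu4) tpu4 0 32768 0 32768 (by decide +kernel)) x h0 h1

/-- Certificate polynomial. -/
def lpl4 : List ITm := [⟨(-421723331451416015625000000000000000000000000000000000000000000),0,0⟩,⟨(-1566267267735626220703125000000000000000000000000000000000000000),1,0⟩,⟨7958532813137129950103759765625000000000000000000000000000000000,2,0⟩,⟨28075742507587581329367180541992187500000000000000000000000000000,3,0⟩,⟨(-45897415505522751867052070182715881347656250000000000000000000000),4,0⟩,⟨(-149167169743505802989117511299730827976562500000000000000000000000),5,0⟩,⟨57878769777233603996925159062252635471014000000000000000000000000,6,0⟩,⟨233157268765968566567982790326944215163399637315750000000000000000,7,0⟩,⟨25888968877509650598710475434986172173060285538377635562500000000,8,0⟩,⟨(-115277095410117408598368177088831622399193104979236754535250625000),9,0⟩,⟨(-45150180879732870916075413051404554025289002266813855272501696327),10,0⟩]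

/-- Certificate tree. -/
def tpl4 : OutT := (A (A (A (O l) (A (O l) (O l))) (A (A (A (O l) (O l)) (A (A (O l) (O l)) (A (A (O l) (O l)) (A (O l) (O l))))) (A (A (A (O l) (O l)) (O l)) (A (O l) (O l))))) (A (A (A (A (O l) (O l)) (O l)) (A (O l) (A (O l) (O l)))) (A (A (A (O l) (O l)) (A (A (O l) (O l)) (A (O l) (A (O l) (O l))))) (A (A (A (A (O l) (O l)) (A (A (O l) (O l)) (A (O l) (O l)))) (A (A (A (O l) (O l)) (A (O l) (O l))) (A (A (O l) (O l)) (A (O l) (O l))))) (A (A (A (O l) (O l)) (A (O l) (O l))) (A (O l) (O l)))))))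

theorem hpl4 (x : ℝ) (h0 : 0 ≤ x) (h1 : x ≤ 1) : evalIL lpl4 x 0 ≤ 0 :=
  uni_le 10 65536 lpl4 (by norm_num) (by norm_num) (by decide +kernel)
    (chkOut_sound (uniPb 10 65536 lpl4) tpl4 0 32768 0 32768 (by decide +kernel)) x h0 h1

/-- Certificate polynomial. -/
def lnu4 : List ITm := [⟨(-5312691406250000000000000000000000000000000000000000000000000000),0,0⟩,⟨(-95103057847359375000000000000000000000000000000000000000000000000),1,0⟩,⟨(-2465950896594916137773437500000000000000000000000000000000000000000),2,0⟩,⟨3709184283296661939932229890625000000000000000000000000000000000000,3,0⟩,⟨2925763913587189359238745985017683593750000000000000000000000000000,4,0⟩,⟨(-4773349431792185695651760361591386495250000000000000000000000000000),5,0⟩,⟨(-926060316435737663950802544996042167536224000000000000000000000000),6,0⟩,⟨1865258150127748532543862322615553721307197098526000000000000000000,7,0⟩,⟨(-103555875510038602394841901739944688692241142153510542250000000000),8,0⟩,⟨(-230554190820234817196736354177663244798386209958473509070501250000),9,0⟩,⟨45150180879732870916075413051404554025289002266813855272501696327,10,0⟩]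

/-- Certificate tree. -/
def tnu4 : OutT := (A (A (A (A (O l) (O l)) (O l)) (A (O l) (O l))) (A (A (O l) (A (O l) (A (O l) (O l)))) (A (A (A (O l) (A (O l) (O l))) (A (A (O l) (O l)) (A (A (O l) (O l)) (A (O l) (A (O l) (O l)))))) (A (A (A (A (A (O l) (O l)) (A (O l) (O l))) (A (A (O l) (O l)) (A (O l) (O l)))) (A (A (O l) (O l)) (A (O l) (O l)))) (A (A (O l) (O l)) (A (O l) (O l)))))))

theorem hnu4 (x : ℝ) (h0 : 0 ≤ x) (h1 : x ≤ 1) : evalIL lnu4 x 0 ≤ 0 :=
  uni_le 10 65536 lnu4 (by norm_num) (by norm_num) (by decide +kernel)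
    (chkOut_sound (uniPb 10 65536 lnu4) tnu4 0 32768 0 32768 (by decide +kernel)) x h0 h1

/-- Certificate polynomial. -/
def lnl4 : List ITm := [⟨(-431844691406250000000000000000000000000000000000000000000000000000),0,0⟩,⟨801928841080640625000000000000000000000000000000000000000000000000,1,0⟩,⟨2037384400163105267226562500000000000000000000000000000000000000000,2,0⟩,⟨(-3593695040971210410158999109375000000000000000000000000000000000000),3,0⟩,⟨(-2937434592353456119491332491693816406250000000000000000000000000000),4,0⟩,⟨4773349431792185695651760361591386495250000000000000000000000000000,5,0⟩,⟨926060316435737663950802544996042167536224000000000000000000000000,6,0⟩,⟨(-1865258150127748532543862322615553721307197098526000000000000000000),7,0⟩,⟨103555875510038602394841901739944688692241142153510542250000000000,8,0⟩,⟨230554190820234817196736354177663244798386209958473509070501250000,9,0⟩,⟨(-45150180879732870916075413051404554025289002266813855272501696327),10,0⟩]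

/-- Certificate tree. -/
def tnl4 : OutT := (A (A (O l) (A (O l) (A (O l) (A (O l) (A (O l) (O l)))))) (A (A (A (A (A (O l) (O l)) (A (O l) (O l))) (A (A (O l) (O l)) (A (O l) (O l)))) (A (A (O l) (O l)) (A (O l) (O l)))) (A (A (A (O l) (O l)) (A (O l) (O l))) (A (A (O l) (O l)) (A (O l) (A (O l) (A (O l) (A (O l) (O l)))))))))

theorem hnl4 (x : ℝ) (h0 : 0 ≤ x) (h1 : x ≤ 1) : evalIL lnl4 x 0 ≤ 0 :=
  uni_le 10 65536 lnl4 (by norm_num) (by norm_num) (by decide +kernel)
    (chkOut_sound (uniPb 10 65536 lnl4) tnl4 0 32768 0 32768 (by decide +kernel)) x h0 h1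

theorem apx4 (u : ℝ) (h0 : -(404217 / 1000000 : ℝ) ≤ u) (h1 : u ≤ 2 * (404217 / 1000000 : ℝ)) :
    |((1 + u)⁻¹) ^ 4 - evalZ Ax.p4 (3 * u) / Ax.D4| ≤ Ax.e4 * |u| ^ Ax.m4 := by
  have hu : 0 < 1 + u := by norm_num at h0 ⊢; linarith
  refine apx_of_S 4 2 _ (S4 u) _ u hu ?_ ?_ ?_
  · simp only [Ax, evalZ_cons, evalZ_nil, S4]
    push_cast
    ring
  · rcases le_total 0 u with hs | hs
    · have hx := hpu4 (u / (2 * (404217 / 1000000 : ℝ))) (by positivity) (by rw [div_le_one (by norm_num)]; exact h1)
      have e : evalIL lpu4 (u / (2 * (404217 / 1000000 : ℝ))) 0 = 4096000000000000000000000000000000000000000000000000000000000000 * (S4 u - Ax.e4 * (1 + u) ^ 4) := by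
        simp only [lpu4, evalIL, List.map_cons, List.map_nil, List.sum_cons, List.sum_nil, S4, Ax]
        push_cast
        ring
      rw [e] at hx
      have := cmul_nonpos (by norm_num) hx
      simp only [Ax] at this ⊢
      linarith
    · have hx := hnu4 (-u / (404217 / 1000000 : ℝ)) (by apply div_nonneg <;> [linarith; norm_num]) (by rw [div_le_one (by norm_num)]; linarith)
      have e : evalIL lnu4 (-u / (404217 / 1000000 : ℝ)) 0 = 4194304000000000000000000000000000000000000000000000000000000000000 * (S4 u - Ax.e4 * (1 + u) ^ 4) := by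
        simp only [lnu4, evalIL, List.map_cons, List.map_nil, List.sum_cons, List.sum_nil, S4, Ax]
        push_cast
        ring
      rw [e] at hx
      have := cmul_nonpos (by norm_num) hx
      simp only [Ax] at this ⊢
      linarith
  · rcases le_total 0 u with hs | hs
    · have hx := hpl4 (u / (2 * (404217 / 1000000 : ℝ))) (by positivity) (by rw [div_le_one (by norm_num)]; exact h1)
      have e : evalIL lpl4 (u / (2 * (404217 / 1000000 : ℝ))) 0 = 4096000000000000000000000000000000000000000000000000000000000000 * (-S4 u - Ax.e4 * (1 + u) ^ 4) := by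
        simp only [lpl4, evalIL, List.map_cons, List.map_nil, List.sum_cons, List.sum_nil, S4, Ax]
        push_cast
        ring
      rw [e] at hx
      have := cmul_nonpos (by norm_num) hx
      simp only [Ax] at this ⊢
      linarith
    · have hx := hnl4 (-u / (404217 / 1000000 : ℝ)) (by apply div_nonneg <;> [linarith; norm_num]) (by rw [div_le_one (by norm_num)]; linarith)
      have e : evalIL lnl4 (-u / (404217 / 1000000 : ℝ)) 0 = 4194304000000000000000000000000000000000000000000000000000000000000 * (-S4 u - Ax.e4 * (1 + u) ^ 4) := by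
        simp only [lnl4, evalIL, List.map_cons, List.map_nil, List.sum_cons, List.sum_nil, S4, Ax]
        push_cast
        ring
      rw [e] at hx
      have := cmul_nonpos (by norm_num) hx
      simp only [Ax] at this ⊢
      linarith

/-- The quotient polynomial for `j = 5`. -/
noncomputable def S5 (u : ℝ) : ℝ :=
  (2907405 / 16777216 : ℝ) * u ^ 0 + (1010001 / 1048576 : ℝ) * u ^ 1 + (-180303133 / 16777216 : ℝ) * u ^ 2 + (-904189989 / 16777216 : ℝ) * u ^ 3 + (892781579 / 16777216 : ℝ) * u ^ 4 + (7353125573 / 16777216 : ℝ) * u ^ 5 + (2364874177 / 16777216 : ℝ) * u ^ 6 + (-17088503243 / 16777216 : ℝ) * u ^ 7 + (-1876947305 / 2097152 : ℝ) * u ^ 8 + (9152291779 / 16777216 : ℝ) * u ^ 9 + (3835735147 / 4194304 : ℝ) * u ^ 10 + (611939407 / 2097152 : ℝ) * u ^ 11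

/-- Certificate polynomial. -/
def lpu5 : List ITm := [⟨(-3738045692443847656250000000000000000000000000000000000000000000000),0,0⟩,⟨64973259166494369506835937500000000000000000000000000000000000000000,1,0⟩,⟨(-8376585733905473124000549316406250000000000000000000000000000000000000),2,0⟩,⟨(-30116410569070763399275295242309570312500000000000000000000000000000000),3,0⟩,⟨22888764639923526022481313400708786010742187500000000000000000000000000,4,0⟩,⟨154917158624309834380896220128233278803680419921875000000000000000000000,5,0⟩,⟨40295404606626045689466937078994591559447316406250000000000000000000000,6,0⟩,⟨(-235394373083023072408446446024096372730477836768273437500000000000000000),7,0⟩,⟨(-167216330671199180241728014092430823505403708836943813125000000000000000),8,0⟩,⟨82396933560345619946612404538939571966806748893316543733511343750000000,9,0⟩,⟨111669447108327757287454527732927203263057658586488555036649864750750000,10,0⟩,⟨28805057138442692084422083689855531584262012651923368635342931353520231,11,0⟩]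

/-- Certificate tree. -/
def tpu5 : OutT := (A (A (A (A (A (A (O l) (O l)) (O l)) (O l)) (A (O l) (O l))) (A (O l) (A (O l) (O l)))) (A (A (A (A (O l) (O l)) (A (O l) (A (O l) (O l)))) (A (A (A (O l) (A (O l) (O l))) (A (A (O l) (A (O l) (O l))) (A (A (O l) (O l)) (A (O l) (O l))))) (A (A (A (O l) (O l)) (A (O l) (O l))) (A (O l) (O l))))) (A (A (A (A (O l) (O l)) (A (O l) (O l))) (A (O l) (O l))) (A (A (O l) (O l)) (A (O l) (A (O l) (A (O l) (A (O l) (A (O l) (O l))))))))))

theorem hpu5 (x : ℝ) (h0 : 0 ≤ x) (h1 : x ≤ 1) : evalIL lpu5 x 0 ≤ 0 :=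
  uni_le 11 65536 lpu5 (by norm_num) (by norm_num) (by decide +kernel)
    (chkOut_sound (uniPb 11 65536 lpu5) tpu5 0 32768 0 32768 (by decide +kernel)) x h0 h1

/-- Certificate polynomial. -/
def lpl5 : List ITm := [⟨(-358645882606506347656250000000000000000000000000000000000000000000000),0,0⟩,⟨(-1529790702618661880493164062500000000000000000000000000000000000000000),1,0⟩,⟨6008169283745853944847106933593750000000000000000000000000000000000000,2,0⟩,⟨28201702184602421827795561203002929687500000000000000000000000000000000,3,0⟩,⟨(-23662722318968165647480137054875198364257812500000000000000000000000000),4,0⟩,⟨(-155042297364769989219015479928639752684600830078125000000000000000000000),5,0⟩,⟨(-40295404606626045689466937078994591559447316406250000000000000000000000),6,0⟩,⟨235394373083023072408446446024096372730477836768273437500000000000000000,7,0⟩,⟨167216330671199180241728014092430823505403708836943813125000000000000000,8,0⟩,⟨(-82396933560345619946612404538939571966806748893316543733511343750000000),9,0⟩,⟨(-111669447108327757287454527732927203263057658586488555036649864750750000),10,0⟩,⟨(-28805057138442692084422083689855531584262012651923368635342931353520231),11,0⟩]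

/-- Certificate tree. -/
def tpl5 : OutT := (A (A (A (O l) (A (O l) (O l))) (A (A (A (O l) (O l)) (A (A (O l) (O l)) (A (O l) (O l)))) (A (A (A (O l) (O l)) (O l)) (A (O l) (O l))))) (A (A (A (O l) (O l)) (A (O l) (A (O l) (O l)))) (A (A (A (O l) (O l)) (A (A (O l) (O l)) (A (O l) (A (O l) (O l))))) (A (A (A (A (O l) (O l)) (A (A (O l) (O l)) (A (O l) (O l)))) (A (A (A (O l) (O l)) (A (O l) (O l))) (A (A (O l) (O l)) (A (O l) (O l))))) (A (A (A (O l) (O l)) (A (O l) (O l))) (A (O l) (O l)))))))

theorem hpl5 (x : ℝ) (h0 : 0 ≤ x) (h1 : x ≤ 1) : evalIL lpl5 x 0 ≤ 0 :=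
  uni_le 11 65536 lpl5 (by norm_num) (by norm_num) (by decide +kernel)
    (chkOut_sound (uniPb 11 65536 lpl5) tpl5 0 32768 0 32768 (by decide +kernel)) x h0 h1

/-- Certificate polynomial. -/
def lnu5 : List ITm := [⟨(-7655517578125000000000000000000000000000000000000000000000000000000000),0,0⟩,⟨(-66532617386490234375000000000000000000000000000000000000000000000000000),1,0⟩,⟨(-4288811895759602239488281250000000000000000000000000000000000000000000000),2,0⟩,⟨7709801105682115430214475582031250000000000000000000000000000000000000000,3,0⟩,⟨2929761873910211330877608115290724609375000000000000000000000000000000000,4,0⟩,⟨(-9914698151955829400377358088206929843435546875000000000000000000000000000),5,0⟩,⟨1289452947412033462062941986527826929902314125000000000000000000000000000,6,0⟩,⟨3766309969328369158535143136385541963687645388292375000000000000000000000,7,0⟩,⟨(-1337730645369593441933824112739446588043229670695550505000000000000000000),8,0⟩,⟨(-329587734241382479786449618155758287867226995573266174934045375000000000),9,0⟩,⟨223338894216655514574909055465854406526115317172977110073299729501500000,10,0⟩,⟨(-28805057138442692084422083689855531584262012651923368635342931353520231),11,0⟩]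

/-- Certificate tree. -/
def tnu5 : OutT := (A (A (A (A (A (O l) (O l)) (O l)) (O l)) (A (O l) (O l))) (A (A (A (O l) (O l)) (A (O l) (A (O l) (O l)))) (A (A (A (O l) (A (O l) (O l))) (A (A (O l) (A (O l) (O l))) (A (A (O l) (O l)) (A (A (O l) (O l)) (A (O l) (O l)))))) (A (A (A (A (A (O l) (O l)) (A (O l) (O l))) (A (A (O l) (O l)) (A (O l) (O l)))) (A (A (A (O l) (O l)) (O l)) (A (O l) (O l)))) (A (A (A (O l) (O l)) (O l)) (A (O l) (O l)))))))

theorem hnu5 (x : ℝ) (h0 : 0 ≤ x) (h1 : x ≤ 1) : evalIL lnu5 x 0 ≤ 0 :=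
  uni_le 11 65536 lnu5 (by norm_num) (by norm_num) (by decide +kernel)
    (chkOut_sound (uniPb 11 65536 lnu5) tnu5 0 32768 0 32768 (by decide +kernel)) x h0 h1

/-- Certificate polynomial. -/
def lnl5 : List ITm := [⟨(-734506767578125000000000000000000000000000000000000000000000000000000000),0,0⟩,⟨1566505679481509765625000000000000000000000000000000000000000000000000000,1,0⟩,⟨3076182673277877219761718750000000000000000000000000000000000000000000000,2,0⟩,⟨(-7219635759258219987915663667968750000000000000000000000000000000000000000),3,0⟩,⟨(-3028828456827925202877457543024025390625000000000000000000000000000000000),4,0⟩,⟨9922707031345279310016990715432944171814453125000000000000000000000000000,5,0⟩,⟨(-1289452947412033462062941986527826929902314125000000000000000000000000000),6,0⟩,⟨(-3766309969328369158535143136385541963687645388292375000000000000000000000),7,0⟩,⟨1337730645369593441933824112739446588043229670695550505000000000000000000,8,0⟩,⟨329587734241382479786449618155758287867226995573266174934045375000000000,9,0⟩,⟨(-223338894216655514574909055465854406526115317172977110073299729501500000),10,0⟩,⟨28805057138442692084422083689855531584262012651923368635342931353520231,11,0⟩]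

/-- Certificate tree. -/
def tnl5 : OutT := (A (A (O l) (A (O l) (A (O l) (A (O l) (A (O l) (O l)))))) (A (A (A (A (A (O l) (O l)) (A (A (O l) (O l)) (A (O l) (O l)))) (A (A (A (O l) (O l)) (O l)) (A (O l) (O l)))) (A (A (A (O l) (O l)) (O l)) (A (O l) (O l)))) (A (A (A (O l) (O l)) (A (O l) (O l))) (A (A (O l) (O l)) (A (A (O l) (O l)) (A (O l) (A (O l) (A (O l) (A (O l) (O l))))))))))

theorem hnl5 (x : ℝ) (h0 : 0 ≤ x) (h1 : x ≤ 1) : evalIL lnl5 x 0 ≤ 0 :=
  uni_le 11 65536 lnl5 (by norm_num) (by norm_num) (by decide +kernel)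
    (chkOut_sound (uniPb 11 65536 lnl5) tnl5 0 32768 0 32768 (by decide +kernel)) x h0 h1

theorem apx5 (u : ℝ) (h0 : -(404217 / 1000000 : ℝ) ≤ u) (h1 : u ≤ 2 * (404217 / 1000000 : ℝ)) :
    |((1 + u)⁻¹) ^ 5 - evalZ Ax.p5 (3 * u) / Ax.D5| ≤ Ax.e5 * |u| ^ Ax.m5 := by
  have hu : 0 < 1 + u := by norm_num at h0 ⊢; linarith
  refine apx_of_S 5 2 _ (S5 u) _ u hu ?_ ?_ ?_
  · simp only [Ax, evalZ_cons, evalZ_nil, S5]
    push_cast
    ring
  · rcases le_total 0 u with hs | hs
    · have hx := hpu5 (u / (2 * (404217 / 1000000 : ℝ))) (by positivity) (by rw [div_le_one (by norm_num)]; exact h1)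
      have e : evalIL lpu5 (u / (2 * (404217 / 1000000 : ℝ))) 0 = 1024000000000000000000000000000000000000000000000000000000000000000000 * (S5 u - Ax.e5 * (1 + u) ^ 5) := by
        simp only [lpu5, evalIL, List.map_cons, List.map_nil, List.sum_cons, List.sum_nil, S5, Ax]
        push_cast
        ring
      rw [e] at hx
      have := cmul_nonpos (by norm_num) hx
      simp only [Ax] at this ⊢
      linarith
    · have hx := hnu5 (-u / (404217 / 1000000 : ℝ)) (by apply div_nonneg <;> [linarith; norm_num]) (by rw [div_le_one (by norm_num)]; linarith)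
      have e : evalIL lnu5 (-u / (404217 / 1000000 : ℝ)) 0 = 2097152000000000000000000000000000000000000000000000000000000000000000000 * (S5 u - Ax.e5 * (1 + u) ^ 5) := by
        simp only [lnu5, evalIL, List.map_cons, List.map_nil, List.sum_cons, List.sum_nil, S5, Ax]
        push_cast
        ring
      rw [e] at hx
      have := cmul_nonpos (by norm_num) hx
      simp only [Ax] at this ⊢
      linarith
  · rcases le_total 0 u with hs | hs
    · have hx := hpl5 (u / (2 * (404217 / 1000000 : ℝ))) (by positivity) (by rw [div_le_one (by norm_num)]; exact h1)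
      have e : evalIL lpl5 (u / (2 * (404217 / 1000000 : ℝ))) 0 = 1024000000000000000000000000000000000000000000000000000000000000000000 * (-S5 u - Ax.e5 * (1 + u) ^ 5) := by
        simp only [lpl5, evalIL, List.map_cons, List.map_nil, List.sum_cons, List.sum_nil, S5, Ax]
        push_cast
        ring
      rw [e] at hx
      have := cmul_nonpos (by norm_num) hx
      simp only [Ax] at this ⊢
      linarith
    · have hx := hnl5 (-u / (404217 / 1000000 : ℝ)) (by apply div_nonneg <;> [linarith; norm_num]) (by rw [div_le_one (by norm_num)]; linarith)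
      have e : evalIL lnl5 (-u / (404217 / 1000000 : ℝ)) 0 = 2097152000000000000000000000000000000000000000000000000000000000000000000 * (-S5 u - Ax.e5 * (1 + u) ^ 5) := by
        simp only [lnl5, evalIL, List.map_cons, List.map_nil, List.sum_cons, List.sum_nil, S5, Ax]
        push_cast
        ring
      rw [e] at hx
      have := cmul_nonpos (by norm_num) hx
      simp only [Ax] at this ⊢
      linarith

theorem hAx : Ax.OK (-(404217 / 1000000 : ℝ)) (2 * (404217 / 1000000 : ℝ)) where
  e10 := by simp only [Ax]; norm_num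
  e20 := by simp only [Ax]; norm_num
  e30 := by simp only [Ax]; norm_num
  e40 := by simp only [Ax]; norm_num
  e50 := by simp only [Ax]; norm_num
  h1 := fun u a b => by simpa using apx1 u a b
  h2 := apx2
  h3 := apx3
  h4 := apx4
  h5 := apx5

end Vale.Agent.P154.D6.K0
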