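import Vale.Agent.P154.D6.K0.Data
import Vale.Agent.P154.Check2

namespace Vale.Agent.P154.D6.K0

open Cert

/-- Chart (0, 0). -/
def P00 : Pb := chartPb false false Nd w G []

/-- Chart (0, 1). -/
def P01 : Pb := chartPb false true Nd w G []

/-- Chart (1, 0). -/
def P10 : Pb := chartPb true false Nd w G []

/-- Chart (1, 1). -/
def P11 : Pb := chartPb true true Nd w G []

/-- The offset. -/
def KK : ℕ := 848936580655866155798344642724541736627183654332340343592824793579883182971401155450337005200472537018661141434615461467189920346452183123197221771425039295117860218712899395736429009010292545672927322532888948532049902235758122284584705377012692523798484983270012436568430250254319757692759242214823978654216571809299409546510336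

end Vale.Agent.P154.D6.K0
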